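-- Statement S0047 (row 35): Maker wins the Snaky achievement game within 21 claims.
-- Proof = kernel-checked certificate.  Maker's first stone is the centre (8,8) of a 17 x 17 window.
-- `Hc` is the proof DAG of the one-handicap position (it answers every Breaker reply outside its zone,
-- and, through the eight symmetries of the square, every reply that is outside SOME image of the zone);
-- the remaining replies are the D4 orbits of (9,8), (9,9), (10,8), (10,9), proved by the DAGs
-- `R1_0`, `R1_1`, `S2_0`, `S2_1`.  Every DAG entry is one generated theorem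
-- (Crest/Agent/Helper32/Snaky/Gen/*, written by notes/s0047/h32/conv41.py from the solver dumps in
-- notes/s0047/certset) whose Boolean side condition is evaluated by the kernel through the rules of
-- Crest/Agent/Helper32/Snaky/Rules.lean.  Root step: Crest/Agent/Helper81/Snaky/{Root,Glue32}.lean;
-- game semantics: Crest/Agent/Helper20/Snaky/Bridge.lean; symmetries: Crest/Agent/Helper47/Snaky/Symm.lean.
import Crest.Statements.S0047
import Crest.Agent.Helper81.Snaky.Glue32
import Crest.Agent.Helper32.Snaky.Gen.Hc
import Crest.Agent.Helper32.Snaky.Gen.R1_0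
import Crest.Agent.Helper32.Snaky.Gen.R1_1
import Crest.Agent.Helper32.Snaky.Gen.S2_0
import Crest.Agent.Helper32.Snaky.Gen.S2_1

set_option autoImplicit false
set_option maxRecDepth 100000
open Crest Crest.CombinatoricsR

namespace Crest.Agent.S0047

open Crest.Agent.Helper20.Snaky Crest.Agent.Helper32.Snaky Crest.Agent.Helper81.Snaky

/-- Maker wins from the empty board with at most 21 claims. -/
theorem mwin21 : MWin 21 ∅ ∅ :=
  mwin_of_wins_cover (W := 17) (c := 8) (n := 20) (by decide)
    (nat_lit 0x1000000000000000000000000000000000000)
    (nat_lit 0xa0007c003e003fe00ff00ffc06fe03ff01ff80ff807f801f800f8005000000) 14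
    [(9,8),(9,9),(10,8),(10,9)]
    (by decide +kernel) (by decide +kernel) (by decide) Hc.root
    (reps_cons (repOK 9 8 R1_0.root (by decide) (by decide) (by decide +kernel))
    (reps_cons (repOK 9 9 R1_1.root (by decide) (by decide) (by decide +kernel))
    (reps_cons (repOK 10 8 S2_0.root (by decide) (by decide) (by decide +kernel))
    (reps_cons (repOK 10 9 S2_1.root (by decide) (by decide) (by decide +kernel))
    reps_nil))))
    (by decide +kernel)

/-- In the Maker–Breaker game on the board ℤ × ℤ (Maker first; the players alternately claim one unclaimed cell), Maker has a policy — a rule giving its next cell from Breaker's replies so far — such that against every sequence of Breaker replies whose first 20 are legal (each a cell not claimed before), Maker's first 21 claims are legal and contain a copy of the six-cell polyomino Snaky {(0,0),(1,0),(2,0),(3,0),(3,1),(4,1)} under a translation composed with a signed coordinate permutation. -/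
theorem result :
    ∃ σ : List (ℤ × ℤ) → ℤ × ℤ, ∀ b : ℕ → ℤ × ℤ,
      (∀ k : ℕ, k < 20 →
        (∀ j : ℕ, j ≤ k → b k ≠ Crest.CombinatoricsR.PolyominoGame.makerClaim σ b j) ∧
        (∀ j : ℕ, j < k → b k ≠ b j)) →
      (∀ k : ℕ, k ≤ 20 →
        (∀ j : ℕ, j < k → Crest.CombinatoricsR.PolyominoGame.makerClaim σ b k ≠
          Crest.CombinatoricsR.PolyominoGame.makerClaim σ b j) ∧
        (∀ j : ℕ, j < k → Crest.CombinatoricsR.PolyominoGame.makerClaim σ b k ≠ b j)) ∧
      Crest.CombinatoricsR.PolyominoGame.ContainsCopy
        {c | ∃ j : ℕ, j ≤ 20 ∧ c = Crest.CombinatoricsR.PolyominoGame.makerClaim σ b j} :=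
  result_of_mwin mwin21

end Crest.Agent.S0047
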