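import Crest.Statements.S0166
import Crest.Agent.Helper30.UMI
import Crest.Agent.Helper4.Diamond
import Crest.Agent.Helper4.UmiLp
import Crest.Agent.Helper27.BlockTree
import Crest.Agent.Helper33.S0168Umi
import Crest.Agent.Helper70.Reflexive

set_option autoImplicit false
open Crest Crest.AnalysisR

namespace Crest.Agent.S0166

/-!
Final assembly for S0166 (helper30, coordinator of row 125).

Witness: the `ℓ²`-sum `lp (fun n => Blk n) 2` of the blocks `Blk n` of helper27
(`Blk n` = closed span, in the Prelude's global tree-potential model, of the coordinate vectors of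
the vertices of depth `≤ n`).  Ingredients:
* blocks are Hilbert-isomorphic (helper27, `blkEquiv`) hence reflexive, and `ℓ²`-sums of reflexive
  spaces are reflexive (helper70);
* the unnormalised midpoint inequality `UMI` for blocks (helper33, on top of helper30's
  `TreeCore`) and for `ℓ²`-sums (helper4); `UMI` gives the three modulus clauses (helper30, `UMI`);
* no equivalent AUC norm: weakly null trees of every height (helper27 `blk_tree`, helper30 K5);
* diamond distortion from the max-midpoint modulus (helper4, `Diamond`).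
This is an honest proof; no weakness of the statement is used.
-/

open Crest.Agent.Helper30 Crest.Agent.Helper27 Filter Topology

section Generic

variable (G : ℕ → Type) [∀ n, NormedAddCommGroup (G n)] [∀ n, NormedSpace ℝ (G n)]

/-- `ℓ²`-sums of separable spaces are separable. -/
theorem separable_lp_two [∀ n, TopologicalSpace.SeparableSpace (G n)] :
    TopologicalSpace.SeparableSpace (lp G 2) := by
  have hD : ∀ n, ∃ D : Set (G n), D.Countable ∧ Dense D :=
    fun n => TopologicalSpace.exists_countable_dense (G n)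
  choose D hDc hDd using hD
  set 𝒮 : Set (lp G 2) := ⋃ n, (fun a => lp.single 2 n a) '' D n with h𝒮
  have h𝒮c : 𝒮.Countable := Set.countable_iUnion (fun n => (hDc n).image _)
  set T : Submodule ℝ (lp G 2) := (Submodule.span ℝ 𝒮).topologicalClosure with hT
  have hTsep : TopologicalSpace.IsSeparable (T : Set (lp G 2)) := by
    rw [hT, Submodule.topologicalClosure_coe]
    exact (h𝒮c.isSeparable.span (R := ℝ)).closure
  have hsingle : ∀ (n : ℕ) (a : G n), lp.single 2 n a ∈ T := by
    intro n a
    have hcont : Continuous (fun a : G n => (lp.single 2 n a : lp G 2)) :=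
      (lp.isometry_single (E := G) (p := 2) n).continuous
    have h1 : a ∈ closure (D n) := hDd n a
    have h2 : lp.single 2 n a ∈ closure ((fun a => (lp.single 2 n a : lp G 2)) '' D n) :=
      image_closure_subset_closure_image hcont (Set.mem_image_of_mem _ h1)
    have h3 : (fun a => (lp.single 2 n a : lp G 2)) '' D n ⊆ (Submodule.span ℝ 𝒮 : Set (lp G 2)) :=
      fun x hx => Submodule.subset_span (Set.mem_iUnion.mpr ⟨n, hx⟩)
    rw [hT, ← SetLike.mem_coe, Submodule.topologicalClosure_coe]
    exact closure_mono h3 h2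
  have hall : ∀ f : lp G 2, f ∈ T := by
    intro f
    have hsum := lp.hasSum_single (E := G) (p := 2) (by norm_num) f
    have hcl : IsClosed (T : Set (lp G 2)) := Submodule.isClosed_topologicalClosure _
    exact hcl.mem_of_tendsto hsum
      (Eventually.of_forall fun s => T.sum_mem fun n _ => hsingle n (f n))
  have huniv : (T : Set (lp G 2)) = Set.univ := Set.eq_univ_of_forall hall
  rw [huniv] at hTsep
  exact TopologicalSpace.isSeparable_univ_iff.mp hTsep

/-- weak nullness passes to the `ℓ²`-sum through a coordinate inclusion -/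
theorem weaklyNull_single (n : ℕ) {w : ℕ → G n} (hw : WeaklyNull w) :
    WeaklyNull (fun k => (lp.single 2 n (w k) : lp G 2)) :=
  hw.comp_clm (lp.singleContinuousLinearMap ℝ G 2 n)

omit [∀ n, NormedSpace ℝ (G n)] in
theorem norm_single_two (n : ℕ) (a : G n) : ‖(lp.single 2 n a : lp G 2)‖ = ‖a‖ :=
  lp.norm_single (by norm_num) n a

/-- the K5 tree data of every block give the K5 tree data of the `ℓ²`-sum -/
theorem trees_lp_two
    (h : ∀ n : ℕ, ∃ T : ℕ → Set (G n), (∃ x ∈ T 0, (1 : ℝ) ≤ ‖x‖) ∧ (∀ j ≤ n, ∀ x ∈ T j, ‖x‖ ≤ 1) ∧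
      ∀ j < n, ∀ x ∈ T j, ∃ u : ℕ → G n, (∀ k, u k ∈ T (j + 1)) ∧
        WeaklyNull (fun k => u k - x) ∧ ∀ k, (1 : ℝ) ≤ ‖u k - x‖) :
    ∀ n : ℕ, ∃ T : ℕ → Set (lp G 2), (∃ z ∈ T 0, (1 : ℝ) ≤ ‖z‖) ∧ (∀ j ≤ n, ∀ z ∈ T j, ‖z‖ ≤ 1) ∧
      ∀ j < n, ∀ z ∈ T j, ∃ u : ℕ → lp G 2, (∀ k, u k ∈ T (j + 1)) ∧
        WeaklyNull (fun k => u k - z) ∧ ∀ k, (1 : ℝ) ≤ ‖u k - z‖ := by
  intro n
  obtain ⟨T, ⟨x₀, hx₀T, hx₀⟩, hT1, hTstep⟩ := h n
  refine ⟨fun j => (fun a => (lp.single 2 n a : lp G 2)) '' T j, ?_, ?_, ?_⟩
  · exact ⟨lp.single 2 n x₀, Set.mem_image_of_mem _ hx₀T, by rw [norm_single_two]; exact hx₀⟩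
  · rintro j hj _ ⟨x, hx, rfl⟩
    rw [norm_single_two]; exact hT1 j hj x hx
  · rintro j hj _ ⟨x, hx, rfl⟩
    obtain ⟨u, huT, huw, hu1⟩ := hTstep j hj x hx
    refine ⟨fun k => lp.single 2 n (u k), fun k => Set.mem_image_of_mem _ (huT k), ?_, fun k => ?_⟩
    · have e : (fun k => (lp.single 2 n (u k) : lp G 2) - lp.single 2 n x)
          = fun k => (lp.single 2 n (u k - x) : lp G 2) := by
        funext k; rw [lp.single_sub]
      rw [e]
      exact weaklyNull_single G n huw
    · rw [← lp.single_sub, norm_single_two]; exact hu1 k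

end Generic

/-- the witness type -/
abbrev W : Type := lp (fun n : ℕ => Blk n) 2

theorem blk_reflexive (n : ℕ) :
    Function.Surjective (NormedSpace.inclusionInDoubleDual ℝ (Blk n)) :=
  Crest.Agent.Helper70.reflexive_of_equiv (blkEquiv n).symm

theorem W_reflexive : Function.Surjective (NormedSpace.inclusionInDoubleDual ℝ W) :=
  Crest.Agent.Helper70.reflexive_lp_two (fun n => Blk n) blk_reflexive

theorem W_umi : UMI W :=
  Crest.Agent.Helper4.umi_lp_two (fun n => Blk n)
    (fun n => Crest.Agent.Helper33.umi_submodule _ (blk n) (blk_le_modelSpace n))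

theorem W_separable : TopologicalSpace.SeparableSpace W := separable_lp_two (fun n => Blk n)

theorem W_no_auc (N : W → ℝ) (hN : IsEquivNormOn N) : ¬ IsAUCOn N :=
  no_auc_of_trees (κ := 1) one_pos (trees_lp_two (fun n => Blk n) blk_tree) hN

/-- a weakly null sequence of unit vectors in the witness: the siblings below the root of
block `1` -/
theorem W_not_finiteDimensional : ¬ FiniteDimensional ℝ W := by
  have hw : WeaklyNull (fun k => (lp.single 2 1 (e 1 (k :: [])) : W)) :=
    weaklyNull_single (fun n => Blk n) 1 (weaklyNull_e 1 [] (by simp))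
  refine not_finiteDimensional_of_weaklyNull hw one_pos (fun k => ?_)
  rw [norm_single_two, norm_e (by simp)]

/-- the witness as a `RealBanach` record -/
noncomputable def WB : Crest.AnalysisR.RealBanach := ⟨W, inferInstance, inferInstance, inferInstance⟩

/-- There is a real Banach space (RealBanach record) that is separable, infinite-dimensional and reflexive, whose given norm has at every t > 0 averaged midpoint asymptotic modulus at least √(1 + t²/12) - 1 and at least (√(1 + t²/4) - 1)/2 and maximum-based midpoint modulus at least √(1 + t²/4) - 1, on which no equivalent norm is asymptotically uniformly convex, and in which for every k every map of the depth-k countably branching diamond graph of distortion at most D has 1 + k/4 ≤ D². -/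
theorem result :
    ∃ E : Crest.AnalysisR.RealBanach, E.IsSeparableInfiniteDim ∧ E.IsReflexive ∧
      (∀ t : ℝ, 0 < t → E.MidpointModulusGE E.norm t (Real.sqrt (1 + t ^ 2 / 12) - 1) ∧
        E.MidpointModulusGE E.norm t ((Real.sqrt (1 + t ^ 2 / 4) - 1) / 2) ∧
        E.MaxMidpointModulusGE E.norm t (Real.sqrt (1 + t ^ 2 / 4) - 1)) ∧
      (∀ N : E.X → ℝ, E.IsEquivNorm N → ¬ E.IsAUC N) ∧
      ∀ (k : ℕ) (f : Crest.AnalysisR.DiamondVertex k → E.X) (D : ℝ),
        E.HasDistortionLE k f D → 1 + (k : ℝ) / 4 ≤ D ^ 2 := by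
  have hUMI : @UMI WB.X WB.normed WB.space := W_umi
  refine ⟨WB, ⟨W_separable, W_not_finiteDimensional⟩, W_reflexive, fun t ht => ⟨?_, ?_, ?_⟩,
    fun N hN => W_no_auc N hN, ?_⟩
  · exact midpointGE_of_umi WB hUMI ht (sqrt_twelve_le t)
  · exact midpointGE_of_umi WB hUMI ht (half_sqrt_le t)
  · exact maxMidpointGE_of_umi WB hUMI ht le_rfl
  · exact Crest.Agent.Helper4.diamond_distortion_sq WB
      (fun t ht _ => maxMidpointGE_of_umi WB hUMI ht le_rfl)

end Crest.Agent.S0166
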