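-- Statement S0324 (row 211). Final assembly (helper65): explicit fan cover (helper57; F2 helper45, F5 helper25),
-- minimal-shadow bound (helper15), triangle area formula (helper29), μH ↔ μHE constant (helper65).
import Crest.Statements.S0324
import Crest.Agent.Helper65.Tetra.S0324Of
import Crest.Agent.Helper57.Fan.Final
import Crest.Agent.Helper15.Shadow

set_option autoImplicit false
open MeasureTheory
open scoped ENNReal
open Crest Crest.GeometryTopology Crest.GeometryTopology.Convex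

namespace Crest.Agent.S0324

/-- The regular tetrahedron `K` with vertices `(±1, 0, 0)`, `(0, ±1, √2)` is covered by finitely many cylinders `Bᵢ + ℝ uᵢ`, each with unit direction `uᵢ` and base `Bᵢ` a triangle (convex hull of three points) in the plane `uᵢ^⊥`, whose total base area `∑ᵢ area(Bᵢ)` is smaller, by a positive margin, than half the area of the orthogonal projection of `K` onto `v^⊥` for every unit vector `v`; areas are 2-dimensional Hausdorff measure. -/
theorem result :
    ∃ (m : ℕ) (u p q r : Fin m → EuclideanSpace ℝ (Fin 3)),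
      (∀ i, ‖u i‖ = 1) ∧
      (∀ i, inner ℝ (p i) (u i) = 0 ∧ inner ℝ (q i) (u i) = 0 ∧ inner ℝ (r i) (u i) = 0) ∧
      convexHull ℝ {!₂[1, 0, 0], !₂[-1, 0, 0], !₂[0, 1, Real.sqrt 2], !₂[0, -1, Real.sqrt 2]} ⊆
        ⋃ i, {x : EuclideanSpace ℝ (Fin 3) | ∃ b ∈ convexHull ℝ {p i, q i, r i}, ∃ t : ℝ, x = b + t • u i} ∧
      ∃ δ : ℝ, 0 < δ ∧ ∀ v : EuclideanSpace ℝ (Fin 3), ‖v‖ = 1 →
        ∑ i, (μH[(2 : ℝ)] (convexHull ℝ {p i, q i, r i})).toReal + δ ≤
          (μH[(2 : ℝ)] ((fun y => y - inner ℝ y v • v) '' convexHull ℝ {!₂[1, 0, 0], !₂[-1, 0, 0], !₂[0, 1, Real.sqrt 2], !₂[0, -1, Real.sqrt 2]})).toReal / 2 := by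
  refine Crest.Agent.Helper65.s0324_of_muHE ?_
    (fun v hv => Crest.Agent.Helper15.shadow_toReal_ge' v hv)
  obtain ⟨m, u, p, q, r, _, hu, hperp, hcov, hsum⟩ := Crest.Agent.Helper57.exists_fan_cover
  exact ⟨m, u, p, q, r, hu, hperp, hcov, 13 / (24 * 10 ^ 9), by norm_num, hsum⟩

end Crest.Agent.S0324
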