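import Crest.Statements.S0355
import Crest.Agent.Helper28.S0355.Final

set_option autoImplicit false
open MeasureTheory
open scoped ENNReal
open Crest Crest.GeometryTopology Crest.GeometryTopology.Convex

namespace Crest.Agent.S0355

/-- There is a convex body K in ℝ^20 (compact, convex, with nonempty interior) whose projection body ΠK — the points x with ⟪x, u⟫ ≤ vol₁₉(P_u K) for every unit u, P_u the orthogonal projection on u^⊥ and vol₁₉ the Lebesgue-normalised 19-dimensional Hausdorff measure — has vol(ΠK)/vol(K)^19 exactly equal to c · 22355476/22020096, where c = 21·20^20/20!; in particular vol(ΠK) > c · vol(K)^19. -/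
theorem result :
    ∃ K : Set (EuclideanSpace ℝ (Fin 20)), IsCompact K ∧ Convex ℝ K ∧ (interior K).Nonempty ∧
      (volume (⋂ u ∈ Metric.sphere (0 : EuclideanSpace ℝ (Fin 20)) 1,
            {x : EuclideanSpace ℝ (Fin 20) | inner ℝ x u ≤
              ((μHE[19] : Measure (EuclideanSpace ℝ (Fin 20))) ((fun y => y - inner ℝ y u • u) '' K)).toReal})).toReal /
          (volume K).toReal ^ 19 =
        (21 * 20 ^ 20 / Nat.factorial 20 : ℝ) * (22355476 / 22020096) ∧
      (21 * 20 ^ 20 / Nat.factorial 20 : ℝ) * (volume K).toReal ^ 19 <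
        (volume (⋂ u ∈ Metric.sphere (0 : EuclideanSpace ℝ (Fin 20)) 1,
            {x : EuclideanSpace ℝ (Fin 20) | inner ℝ x u ≤
              ((μHE[19] : Measure (EuclideanSpace ℝ (Fin 20))) ((fun y => y - inner ℝ y u • u) '' K)).toReal})).toReal := by
  exact Crest.Agent.Helper28.S0355.Final.result_final

end Crest.Agent.S0355
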